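import Vale.Agent.P147.Main

/-!
P147: nonnegative local drift up to a coboundary.
-/

open MeasureTheory Filter Vale.Agent.P147

namespace Vale.Agent.Results.P147.DriftCoboundary

theorem result {d : ℕ} {Ω : Type} {mΩ : MeasurableSpace Ω} (μ : Measure Ω)
    [IsProbabilityMeasure μ] (ℱ : Filtration ℕ mΩ) (env : Ω → (Fin d → ℤ) → Fin d × Bool → ℝ)
    (X : ℕ → Ω → Fin d → ℤ) (h : IsRWRE μ ℱ env X) (l : Fin d → ℝ) :
    (∀ (u : Ω → (Fin d → ℤ) → ℝ) (R : ℝ), (∀ x, Measurable[ℱ 0] fun ω => u ω x) →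
      (∀ ω, BddAbove (Set.range (u ω))) → (∀ ω x e, |u ω (x + stp e) - u ω x| ≤ R) →
      (∀ᵐ ω ∂μ, ∀ x, 0 ≤ ∑ e, env ω x e * (ip l (stp e) + u ω (x + stp e) - u ω x)) →
      μ (esc (-l) X) = 0 ∧
      (μ (esc l X ∪ esc (-l) X) = 0 ∨ μ (esc l X ∪ esc (-l) X) = 1 →
        μ (esc l X) = 0 ∨ μ (esc l X) = 1)) ∧
    ((∀ᵐ ω ∂μ, ∀ x, 0 ≤ ∑ e, env ω x e * ip l (stp e)) → μ (esc (-l) X) = 0) ∧
    ((∀ᵐ ω ∂μ, ∀ x, ∑ e, env ω x e * ip l (stp e) = 0) →
      μ (esc l X) = 0 ∧ μ (esc (-l) X) = 0) := by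
  have hneg : ∀ (l : Fin d → ℝ) (x : Fin d → ℤ), ip (-l) x = - ip l x := by
    intro l x
    simp [ip]
  have key : ∀ (l : Fin d → ℝ) (u : Ω → (Fin d → ℤ) → ℝ) (R : ℝ),
      (∀ x, Measurable[ℱ 0] fun ω => u ω x) →
      (∀ ω, BddAbove (Set.range (u ω))) → (∀ ω x e, |u ω (x + stp e) - u ω x| ≤ R) →
      (∀ᵐ ω ∂μ, ∀ x, 0 ≤ ∑ e, env ω x e * (ip l (stp e) + u ω (x + stp e) - u ω x)) →
      μ (esc (-l) X) = 0 := by
    intro l u R hu hC hR hd
    have h1 := main h hu hC hR hd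
    refine measure_mono_null ?_ (ae_iff.1 h1)
    intro ω hω
    have h2 : Tendsto (fun n => ip (-l) (X n ω)) atTop atTop := hω
    simp only [hneg] at h2
    simp only [Set.mem_ofPred_eq, not_not]
    exact tendsto_neg_atTop_iff.1 h2
  have key0 : ∀ l : Fin d → ℝ, (∀ᵐ ω ∂μ, ∀ x, 0 ≤ ∑ e, env ω x e * ip l (stp e)) →
      μ (esc (-l) X) = 0 := by
    intro l hd
    refine key l (fun _ _ => 0) 0 (fun x => measurable_const) (fun ω => ?_) (by simp) ?_
    · exact ⟨0, by rintro y ⟨x, rfl⟩; exact le_rfl⟩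
    · simpa using hd
  refine ⟨?_, key0 l, ?_⟩
  · intro u R hu hC hR hd
    have h1 := key l u R hu hC hR hd
    refine ⟨h1, ?_⟩
    have h2 : μ (esc l X ∪ esc (-l) X) = μ (esc l X) := by
      refine le_antisymm ?_ (measure_mono Set.subset_union_left)
      refine (measure_union_le _ _).trans ?_
      rw [h1, add_zero]
    rw [h2]
    exact id
  · intro hd
    have h1 := key0 (-l) (by
      filter_upwards [hd] with ω hω x
      have h2 := hω x
      simp only [hneg, mul_neg, Finset.sum_neg_distrib, h2, neg_zero, le_refl])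
    rw [neg_neg] at h1
    exact ⟨h1, key0 l (by
      filter_upwards [hd] with ω hω x
      exact (hω x).ge)⟩

end Vale.Agent.Results.P147.DriftCoboundary
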